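import Vale.Agent.P254.SP.IfaceA
import Vale.Agent.P254.SP.H828.PL
import Vale.Agent.P254.SP.H620.DK

/-!
# P254, line (SP_0), row BYP2: the formula of `Υ_e`

`Υ_e = E (2 ⟨e, t(G) e⟩ - |R e|² - Σ_a |D_a R e|²)`, `R = r(G)`, `S = r'(G)`, `G = Σ_a z_a A_a + F`
(`A_a` any constant symmetric matrices).  With `χ = r + r r'`, `α = r' + r r''` one has
`2 t - r² = 1 + x χ - α`; one integration by parts gives
`Υ_e + Σ_a E |D_a R e - S A_a e|² = |e|² + X_e`.
-/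

open MeasureTheory Matrix Finset

noncomputable section

namespace Vale.Agent.P254.SP.H545

open Vale.Agent.P227.M Vale.Agent.P254.S Vale.Agent.P254.S130 Vale.Agent.P254.SP.H828

/-! ### frames: pointwise algebra -/

section alg

set_option linter.unusedSectionVars false

variable {ι : Type*} [Fintype ι] [DecidableEq ι] {U : Matrix ι ι ℝ} {s : ι → ℝ}

/-- `Σ_ij c(s_i, s_j) (Uᵀe)_i (UᵀXU)_ij (Uᵀv)_j` -/
def KK (c : ℝ → ℝ → ℝ) (U : Matrix ι ι ℝ) (s : ι → ℝ) (e : ι → ℝ) (X : Matrix ι ι ℝ)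
    (v : ι → ℝ) : ℝ :=
  ∑ i, ∑ j, c (s i) (s j) * (Uᵀ *ᵥ e) i * (Uᵀ * X * U) i j * (Uᵀ *ᵥ v) j

theorem KK_add (c d : ℝ → ℝ → ℝ) (e : ι → ℝ) (X : Matrix ι ι ℝ) (v : ι → ℝ) :
    KK (fun x y => c x y + d x y) U s e X v = KK c U s e X v + KK d U s e X v := by
  unfold KK
  simp only [← Finset.sum_add_distrib]
  refine Finset.sum_congr rfl fun i _ => Finset.sum_congr rfl fun j _ => ?_
  ring

theorem KK_smul (k : ℝ) (c : ℝ → ℝ → ℝ) (e : ι → ℝ) (X : Matrix ι ι ℝ) (v : ι → ℝ) :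
    KK (fun x y => k * c x y) U s e X v = k * KK c U s e X v := by
  unfold KK
  simp only [Finset.mul_sum]
  refine Finset.sum_congr rfl fun i _ => Finset.sum_congr rfl fun j _ => ?_
  ring

theorem dot_orth (hU : U * Uᵀ = 1) (x y : ι → ℝ) : (Uᵀ *ᵥ x) ⬝ᵥ (Uᵀ *ᵥ y) = x ⬝ᵥ y := by
  rw [dotProduct_mulVec, vecMul_transpose, mulVec_mulVec, hU, one_mulVec]

theorem frame_fm (hU : U * Uᵀ = 1) (f : ℝ → ℝ) (x : ι → ℝ) (i : ι) :
    (Uᵀ *ᵥ (fm f U s *ᵥ x)) i = f (s i) * (Uᵀ *ᵥ x) i := by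
  have hU' : Uᵀ * U = 1 := mul_eq_one_comm.1 hU
  have h : Uᵀ *ᵥ (fm f U s *ᵥ x) = diagonal (fun i => f (s i)) *ᵥ (Uᵀ *ᵥ x) := by
    unfold fm
    rw [mulVec_mulVec, mulVec_mulVec]
    congr 1
    calc Uᵀ * (U * diagonal (fun i => f (s i)) * Uᵀ)
        = (Uᵀ * U) * diagonal (fun i => f (s i)) * Uᵀ := by simp only [Matrix.mul_assoc]
      _ = _ := by rw [hU', Matrix.one_mul]
  rw [h, mulVec_diagonal]

theorem frame_mul (hU : U * Uᵀ = 1) (X : Matrix ι ι ℝ) (v : ι → ℝ) :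
    Uᵀ *ᵥ (X *ᵥ v) = (Uᵀ * X * U) *ᵥ (Uᵀ *ᵥ v) := by
  rw [mulVec_mulVec, mulVec_mulVec]
  congr 1
  calc Uᵀ * X = Uᵀ * X * (U * Uᵀ) := by rw [hU, Matrix.mul_one]
    _ = _ := by simp only [Matrix.mul_assoc]

/-- (F0) -/
theorem dot_KK (hU : U * Uᵀ = 1) {c : ℝ → ℝ → ℝ} {X Y : Matrix ι ι ℝ}
    (hY : ∀ i j, (Uᵀ * Y * U) i j = c (s i) (s j) * (Uᵀ * X * U) i j) (e v : ι → ℝ) :
    e ⬝ᵥ (Y *ᵥ v) = KK c U s e X v := by
  rw [← dot_orth hU, frame_mul hU]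
  unfold KK
  generalize Uᵀ *ᵥ e = p
  generalize Uᵀ *ᵥ v = q
  simp only [dotProduct, mulVec, Finset.mul_sum]
  refine Finset.sum_congr rfl fun i _ => Finset.sum_congr rfl fun j _ => ?_
  rw [hY i j]
  ring

/-- (F2) -/
theorem dot_KK_left (hU : U * Uᵀ = 1) (f : ℝ → ℝ) (X : Matrix ι ι ℝ) (e v : ι → ℝ) :
    (fm f U s *ᵥ e) ⬝ᵥ (X *ᵥ v) = KK (fun x _ => f x) U s e X v := by
  rw [← dot_orth hU, frame_mul hU X v]
  unfold KK
  simp only [dotProduct]
  refine Finset.sum_congr rfl fun i _ => ?_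
  rw [frame_fm hU]
  generalize Uᵀ *ᵥ e = p
  generalize Uᵀ *ᵥ v = q
  simp only [mulVec, dotProduct, Finset.mul_sum]
  refine Finset.sum_congr rfl fun j _ => ?_
  ring

/-- (F4) -/
theorem dot_KK_right (hU : U * Uᵀ = 1) {c : ℝ → ℝ → ℝ} {X Y : Matrix ι ι ℝ}
    (hY : ∀ i j, (Uᵀ * Y * U) i j = c (s i) (s j) * (Uᵀ * X * U) i j)
    (hc : ∀ x y, c x y = c y x) (hX : Xᵀ = X) (f : ℝ → ℝ) (e v : ι → ℝ) :
    (Y *ᵥ e) ⬝ᵥ (fm f U s *ᵥ v) = KK (fun x y => c x y * f y) U s e X v := by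
  have hXs : ∀ i j, (Uᵀ * X * U) j i = (Uᵀ * X * U) i j := by
    intro i j
    have h : (Uᵀ * X * U)ᵀ = Uᵀ * X * U := by
      rw [transpose_mul, transpose_mul, transpose_transpose, hX, Matrix.mul_assoc]
    calc (Uᵀ * X * U) j i = (Uᵀ * X * U)ᵀ i j := rfl
      _ = _ := by rw [h]
  rw [← dot_orth hU, frame_mul hU]
  unfold KK
  simp only [dotProduct, frame_fm hU]
  generalize Uᵀ *ᵥ e = p
  generalize Uᵀ *ᵥ v = q
  simp only [mulVec, dotProduct, Finset.sum_mul]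
  rw [Finset.sum_comm]
  refine Finset.sum_congr rfl fun i _ => Finset.sum_congr rfl fun j _ => ?_
  rw [show (Uᵀ * Y * U) j i = c (s j) (s i) * (Uᵀ * X * U) j i from hY j i, hXs i j, hc (s j) (s i)]
  ring

/-- (F5) -/
theorem dot_fm_fm (hU : U * Uᵀ = 1) (f g : ℝ → ℝ) (e v : ι → ℝ) :
    (fm f U s *ᵥ e) ⬝ᵥ (fm g U s *ᵥ v) = e ⬝ᵥ (fm (fun x => f x * g x) U s *ᵥ v) := by
  rw [← dot_orth hU, ← dot_orth hU e]
  simp only [dotProduct, frame_fm hU]
  refine Finset.sum_congr rfl fun i _ => ?_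
  ring

/-- `⟨e, f(G) e⟩` in the frame -/
theorem dot_fm (hU : U * Uᵀ = 1) (f : ℝ → ℝ) (e : ι → ℝ) :
    e ⬝ᵥ (fm f U s *ᵥ e) = ∑ i, f (s i) * (Uᵀ *ᵥ e) i ^ 2 := by
  rw [← dot_orth hU]
  simp only [dotProduct, frame_fm hU]
  refine Finset.sum_congr rfl fun i _ => ?_
  ring

theorem KK_congr {c d : ℝ → ℝ → ℝ} (h : ∀ x y, c x y = d x y) (e : ι → ℝ) (X : Matrix ι ι ℝ)
    (v : ι → ℝ) : KK c U s e X v = KK d U s e X v := by
  have : c = d := by funext x y; exact h x y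
  rw [this]

end alg

/-! ### fields -/

section field

variable {n : ℕ}

/-- polynomial growth and measurable -/
def Nc (f : E n → ℝ) : Prop := PG f ∧ AEStronglyMeasurable f (gQ n)

variable {f g : E n → ℝ}

theorem Nc.add (hf : Nc f) (hg : Nc g) : Nc fun z => f z + g z := ⟨hf.1.add hg.1, hf.2.add hg.2⟩
theorem Nc.sub (hf : Nc f) (hg : Nc g) : Nc fun z => f z - g z := ⟨hf.1.sub hg.1, hf.2.sub hg.2⟩
theorem Nc.mul (hf : Nc f) (hg : Nc g) : Nc fun z => f z * g z := ⟨hf.1.mul hg.1, hf.2.mul hg.2⟩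
theorem Nc.const (c : ℝ) : Nc fun _ : E n => c := ⟨PG.const c, aestronglyMeasurable_const⟩
theorem Nc.sum {κ : Type*} (s : Finset κ) {f : κ → E n → ℝ} (h : ∀ k ∈ s, Nc (f k)) :
    Nc fun z => ∑ k ∈ s, f k z :=
  ⟨PG.sum s fun k hk => (h k hk).1, Finset.aestronglyMeasurable_fun_sum s fun k hk => (h k hk).2⟩
theorem Nc.integrable (hf : Nc f) : Integrable f (gQ n) := hf.1.integrable hf.2
theorem nc_of_PL (hf : PL f) : Nc f := ⟨hf.pg, hf.meas⟩
theorem nc_pd (hf : PL f) (i : Fin n) : Nc (pd i f) :=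
  ⟨hf.pg_pd i, (meas_pd f i).aestronglyMeasurable⟩

/-- matrix fields with entries in `Nc` -/
def MNc (B : E n → Matrix (Fin n) (Fin n) ℝ) : Prop := ∀ i j, Nc fun z => B z i j

/-- vector fields with entries in `Nc` -/
def VNc (w : E n → Fin n → ℝ) : Prop := ∀ i, Nc fun z => w z i

theorem VNc.const (v : Fin n → ℝ) : VNc fun _ : E n => v := fun i => Nc.const (v i)

theorem MNc.mulVec {B : E n → Matrix (Fin n) (Fin n) ℝ} {w : E n → Fin n → ℝ} (hB : MNc B)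
    (hw : VNc w) : VNc fun z => B z *ᵥ w z := fun i => by
  simp only [Matrix.mulVec, dotProduct]
  exact Nc.sum _ fun j _ => (hB i j).mul (hw j)

theorem VNc.dot {v w : E n → Fin n → ℝ} (hv : VNc v) (hw : VNc w) : Nc fun z => v z ⬝ᵥ w z := by
  simp only [dotProduct]
  exact Nc.sum _ fun j _ => (hv j).mul (hw j)

theorem VNc.sub {v w : E n → Fin n → ℝ} (hv : VNc v) (hw : VNc w) : VNc fun z => v z - w z :=
  fun i => (hv i).sub (hw i)

theorem MNc.sub {v w : E n → Matrix (Fin n) (Fin n) ℝ} (hv : MNc v) (hw : MNc w) :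
    MNc fun z => v z - w z := fun i j => (hv i j).sub (hw i j)

theorem MNc.const (B : Matrix (Fin n) (Fin n) ℝ) : MNc fun _ : E n => B := fun i j => Nc.const (B i j)

/-- what is used of the functional calculus -/
structure Fld (U : E n → Matrix (Fin n) (Fin n) ℝ) (s : E n → Fin n → ℝ) : Prop where
  orth : ∀ z, U z * (U z)ᵀ = 1
  bl : ∀ f f' : ℝ → ℝ, (∀ x, HasDerivAt f (f' x) x) → Continuous f' →
    ∀ i j, BL (fun z => fc U s f z i j)
  dk : ∀ f f' : ℝ → ℝ, (∀ x, HasDerivAt f (f' x) x) → Continuous f' → ∀ᵐ z ∂(gQ n), ∀ k i j,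
    ((U z)ᵀ * pdM k (fc U s f) z * U z) i j = SP.dd f f' (s z i) (s z j) * uu U s k z i j

theorem fc_eq (U : E n → Matrix (Fin n) (Fin n) ℝ) (s : E n → Fin n → ℝ) (f : ℝ → ℝ) (z : E n) :
    fc U s f z = fm f (U z) (s z) := rfl

variable {U : E n → Matrix (Fin n) (Fin n) ℝ} {s : E n → Fin n → ℝ}

theorem fc_symm (U : E n → Matrix (Fin n) (Fin n) ℝ) (s : E n → Fin n → ℝ) (f : ℝ → ℝ) (z : E n) :
    (fc U s f z)ᵀ = fc U s f z := by
  unfold fc
  rw [transpose_mul, transpose_mul, transpose_transpose, diagonal_transpose, Matrix.mul_assoc]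

theorem pdM_symm (U : E n → Matrix (Fin n) (Fin n) ℝ) (s : E n → Fin n → ℝ) (f : ℝ → ℝ) (k : Fin n)
    (z : E n) : (pdM k (fc U s f) z)ᵀ = pdM k (fc U s f) z := by
  ext i j
  show pd k (fun y => fc U s f y j i) z = pd k (fun y => fc U s f y i j) z
  congr 1
  funext y
  exact congrFun (congrFun (fc_symm U s f y) i) j

theorem dot_comm_symm {B : Matrix (Fin n) (Fin n) ℝ} (hB : Bᵀ = B) (v w : Fin n → ℝ) :
    v ⬝ᵥ (B *ᵥ w) = (B *ᵥ v) ⬝ᵥ w := by
  rw [dotProduct_mulVec, ← mulVec_transpose, hB]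

/-- a scalar function of a matrix field -/
theorem pl_dot {B : E n → Matrix (Fin n) (Fin n) ℝ} (hB : ∀ i j, PL fun z => B z i j)
    (v w : Fin n → ℝ) : PL fun z => v ⬝ᵥ (B z *ᵥ w) := by
  simp only [dotProduct, Matrix.mulVec]
  exact PL.sum _ fun i _ => (PL.const _).mul (PL.sum _ fun j _ => (hB i j).mul (PL.const _))

theorem pd_dot {B : E n → Matrix (Fin n) (Fin n) ℝ} {z : E n}
    (hB : ∀ i j, DifferentiableAt ℝ (fun z => B z i j) z) (v w : Fin n → ℝ) (a : Fin n) :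
    pd a (fun z => v ⬝ᵥ (B z *ᵥ w)) z = v ⬝ᵥ (pdM a B z *ᵥ w) := by
  simp only [dotProduct, Matrix.mulVec]
  rw [pd_sum]
  · refine Finset.sum_congr rfl fun i _ => ?_
    rw [pd_mul (differentiableAt_const _), pd_const, pd_sum]
    · rw [mul_zero, add_zero]
      congr 1
      refine Finset.sum_congr rfl fun j _ => ?_
      rw [pd_mul (hB i j) (differentiableAt_const _), pd_const]
      show B z i j * 0 + w j * pd a (fun y => B y i j) z = pd a (fun y => B y i j) z * w j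
      ring
    · exact fun j _ => (hB i j).mul (differentiableAt_const _)
    · exact DifferentiableAt.fun_sum fun j _ => (hB i j).mul (differentiableAt_const _)
  · exact fun i _ => (differentiableAt_const _).mul
      (DifferentiableAt.fun_sum fun j _ => (hB i j).mul (differentiableAt_const _))

/-- the Stein identity for `f(G)`: `E⟨e, G f(G) e⟩ = Σ_a E⟨e, (D_a f(G)) A_a e⟩ + E⟨f(G) e, F e⟩` -/
theorem st (h : Fld U s) {f f' : ℝ → ℝ} (hf : ∀ x, HasDerivAt f (f' x) x) (hf' : Continuous f')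
    (A : Fin n → Matrix (Fin n) (Fin n) ℝ) (e : Fin n → ℝ) :
    ∫ z, e ⬝ᵥ (fc U s (fun x => x * f x) z *ᵥ e) ∂(gQ n)
      = ∫ z, ∑ a, e ⬝ᵥ (pdM a (fc U s f) z *ᵥ (A a *ᵥ e)) ∂(gQ n)
        + ∫ z, (fc U s f z *ᵥ e) ⬝ᵥ ((GG U s z - ∑ a, z a • A a) *ᵥ e) ∂(gQ n) := by
  have hone : ∀ i j, PL fun z => GG U s z i j := fun i j =>
    PL.of_BL (h.bl (fun x => x) (fun _ => 1) (fun x => hasDerivAt_id' x) continuous_const i j)
  have hPL : ∀ i j, PL fun z => fc U s f z i j := fun i j => PL.of_BL (h.bl f f' hf hf' i j)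
  have hA : ∀ i j, PL fun z : E n => (∑ a, z a • A a) i j := fun i j => by
    have e1 : (fun z : E n => (∑ a, z a • A a) i j) = fun z => ∑ a, z a * A a i j := by
      funext z
      rw [Matrix.sum_apply]
      rfl
    rw [e1]
    exact PL.sum _ fun a _ => (PL.coord a).mul (PL.const _)
  have hN : ∀ a, PL fun z => e ⬝ᵥ (fc U s f z *ᵥ (A a *ᵥ e)) := fun a => pl_dot hPL _ _
  have hF : MNc fun z : E n => GG U s z - ∑ a, z a • A a := fun i j =>
    nc_of_PL ((hone i j).sub (hA i j))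
  have h1 : ∀ z : E n, e ⬝ᵥ (fc U s (fun x => x * f x) z *ᵥ e)
      = ∑ a, z a * (e ⬝ᵥ (fc U s f z *ᵥ (A a *ᵥ e)))
        + (fc U s f z *ᵥ e) ⬝ᵥ ((GG U s z - ∑ a, z a • A a) *ᵥ e) := by
    intro z
    have e1 : fc U s (fun x => x * f x) z *ᵥ e = fc U s f z *ᵥ (GG U s z *ᵥ e) := by
      rw [mulVec_mulVec]
      congr 1
      have hU : (U z)ᵀ * U z = 1 := mul_eq_one_comm.1 (h.orth z)
      unfold GG fc
      calc U z * diagonal (fun k => s z k * f (s z k)) * (U z)ᵀ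
          = U z * (diagonal (fun k => f (s z k)) * diagonal (fun k => s z k)) * (U z)ᵀ := by
            rw [diagonal_mul_diagonal]
            congr 3
            funext k
            ring
        _ = U z * diagonal (fun k => f (s z k)) * ((U z)ᵀ * U z) * diagonal (fun k => s z k)
              * (U z)ᵀ := by
            rw [hU, Matrix.mul_one]
            simp only [Matrix.mul_assoc]
        _ = _ := by simp only [Matrix.mul_assoc]
    have e2 : GG U s z *ᵥ e = ∑ a, z a • (A a *ᵥ e) + (GG U s z - ∑ a, z a • A a) *ᵥ e := by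
      rw [sub_mulVec, sum_mulVec]
      simp only [smul_mulVec]
      abel
    rw [e1]
    conv_lhs => rw [e2]
    rw [mulVec_add, dotProduct_add, mulVec_sum, dotProduct_sum,
      dot_comm_symm (fc_symm U s f z) e]
    congr 1
    refine Finset.sum_congr rfl fun a _ => ?_
    rw [mulVec_smul, dotProduct_smul, smul_eq_mul]
  rw [integral_congr_ae (ae_of_all _ h1), integral_add, integral_finsetSum, integral_finsetSum]
  · congr 1
    refine Finset.sum_congr rfl fun a _ => ?_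
    rw [ibp (hN a) a]
    refine integral_congr_ae ?_
    have hd : ∀ᵐ z ∂(gQ n), ∀ i j, DifferentiableAt ℝ (fun z => fc U s f z i j) z := by
      rw [ae_all_iff]
      intro i
      rw [ae_all_iff]
      exact fun j => (hPL i j).ae_diffQ
    filter_upwards [hd] with z hz
    exact pd_dot hz _ _ a
  · intro a _
    refine (VNc.dot (VNc.const _) (MNc.mulVec (fun i j => nc_pd (hPL i j) a) (VNc.const _))).integrable
  · intro a _
    exact ((nc_of_PL (PL.coord a)).mul (nc_of_PL (hN a))).integrable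
  · exact (Nc.sum _ fun a _ => (nc_of_PL (PL.coord a)).mul (nc_of_PL (hN a))).integrable
  · exact (VNc.dot (MNc.mulVec (fun i j => nc_of_PL (hPL i j)) (VNc.const _))
      (MNc.mulVec hF (VNc.const _))).integrable

/-! ### the formula -/

/-- `χ = r + r r'` -/
def chi (P : F1) (x : ℝ) : ℝ := P.r x + P.r x * P.r' x

/-- `χ' = r' + r'² + r r''` -/
def chi' (P : F1) (x : ℝ) : ℝ := P.r' x + (P.r' x * P.r' x + P.r x * P.r'' x)

/-- `α = r' + r r''` -/
def alf (P : F1) (x : ℝ) : ℝ := P.r' x + P.r x * P.r'' x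

/-- the commutator kernel
`c(x,y) = (r[x,y] - r'(x)) + r(x) (r'[x,y] - r''(x)) - r'(y) (r[x,y] - r'(y))` -/
def cker (P : F1) (x y : ℝ) : ℝ :=
  (SP.dd P.r P.r' x y - P.r' x) + P.r x * (SP.dd P.r' P.r'' x y - P.r'' x)
    - P.r' y * (SP.dd P.r P.r' x y - P.r' y)

/-- `Υ_e` -/
def Ups (P : F1) (U : E n → Matrix (Fin n) (Fin n) ℝ) (s : E n → Fin n → ℝ) (e : Fin n → ℝ) : ℝ :=
  Ex Q (fun z => 2 * (e ⬝ᵥ (fc U s P.t z *ᵥ e)) - (fc U s P.r z *ᵥ e) ⬝ᵥ (fc U s P.r z *ᵥ e)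
    - ∑ a, (pdM a (fc U s P.r) z *ᵥ e) ⬝ᵥ (pdM a (fc U s P.r) z *ᵥ e))

/-- `Σ_a E |D_a R e - S A_a e|²` -/
def Qd (P : F1) (U : E n → Matrix (Fin n) (Fin n) ℝ) (s : E n → Fin n → ℝ)
    (A : Fin n → Matrix (Fin n) (Fin n) ℝ) (e : Fin n → ℝ) : ℝ :=
  Ex Q (fun z => ∑ a, (pdM a (fc U s P.r) z *ᵥ e - fc U s P.r' z *ᵥ (A a *ᵥ e)) ⬝ᵥ
    (pdM a (fc U s P.r) z *ᵥ e - fc U s P.r' z *ᵥ (A a *ᵥ e)))

section F1

variable (P : F1)

theorem cont_r : Continuous P.r := continuous_iff_continuousAt.2 fun x => (P.hr x).continuousAt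
theorem cont_r' : Continuous P.r' := continuous_iff_continuousAt.2 fun x => (P.hr' x).continuousAt

theorem hasDeriv_chi (x : ℝ) : HasDerivAt (chi P) (chi' P x) x := (P.hr x).add ((P.hr x).mul (P.hr' x))

theorem cont_chi' : Continuous (chi' P) := by
  unfold chi'
  exact (cont_r' P).add (((cont_r' P).mul (cont_r' P)).add ((cont_r P).mul P.r''_cont))

theorem cont_alf : Continuous (alf P) := by
  unfold alf
  exact (cont_r' P).add ((cont_r P).mul P.r''_cont)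

/-- `2 t - r² = 1 + x χ - α` -/
theorem model_chi (x : ℝ) : 2 * P.t x - P.r x * P.r x = 1 + x * chi P x - alf P x := by
  have h1 := P.model1 x
  have h2 := P.model2 x
  have h3 := P.r_eq x
  rw [h2] at h3
  unfold chi alf
  linear_combination (-1) * h1 - h3

theorem hasDeriv_alf (x : ℝ) : HasDerivAt (alf P)
    (1 * chi P x + x * chi' P x - (2 * P.L x - (P.r' x * P.r x + P.r x * P.r' x))) x := by
  have e1 : alf P = fun x => 1 + x * chi P x - (2 * P.t x - P.r x * P.r x) := by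
    funext x
    rw [model_chi]
    ring
  rw [e1]
  exact (((hasDerivAt_id' x).mul (hasDeriv_chi P x)).const_add 1).sub
    (((P.ht x).const_mul 2).sub ((P.hr x).mul (P.hr x)))

theorem cont_alf' : Continuous fun x =>
    1 * chi P x + x * chi' P x - (2 * P.L x - (P.r' x * P.r x + P.r x * P.r' x)) := by
  have hL : Continuous P.L := continuous_iff_continuousAt.2 fun x => (P.hL x).continuousAt
  have hc : Continuous (chi P) := continuous_iff_continuousAt.2 fun x => (hasDeriv_chi P x).continuousAt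
  exact ((continuous_const.mul hc).add (continuous_id.mul (cont_chi' P))).sub
    ((continuous_const.mul hL).sub (((cont_r' P).mul (cont_r P)).add ((cont_r P).mul (cont_r' P))))

theorem dd_symm (f f' : ℝ → ℝ) (x y : ℝ) : SP.dd f f' x y = SP.dd f f' y x := by
  unfold SP.dd
  by_cases h : x = y
  · subst h; rfl
  · rw [if_neg h, if_neg (Ne.symm h), ← neg_sub (f y), ← neg_sub y, neg_div_neg_eq]

theorem dd_chi (x y : ℝ) : SP.dd (chi P) (chi' P) x y =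
    SP.dd P.r P.r' x y + P.r x * SP.dd P.r' P.r'' x y + P.r' y * SP.dd P.r P.r' x y := by
  unfold SP.dd
  by_cases h : x = y
  · subst h
    simp only [if_true]
    unfold chi'
    ring
  · simp only [if_neg h]
    have h' : x - y ≠ 0 := sub_ne_zero.2 h
    unfold chi
    field_simp
    ring

theorem ker_eq (x y : ℝ) : SP.dd (chi P) (chi' P) x y - 2 * (SP.dd P.r P.r' x y * P.r' y)
    + 1 * (P.r' y * P.r' y) = alf P x + cker P x y := by
  rw [dd_chi]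
  unfold alf cker
  ring

end F1

/-- **BYP2** -/
theorem byp2 (P : F1) (h : Fld U s) {A : Fin n → Matrix (Fin n) (Fin n) ℝ} {e : Fin n → ℝ} {q : ℝ}
    (hq : ∑ a, A a *ᵥ (A a *ᵥ e) = q • e) :
    Ups P U s e + Qd P U s A e = e ⬝ᵥ e
      + (q - 1) * Ex Q (fun z => e ⬝ᵥ (fc U s (alf P) z *ᵥ e))
      + Ex Q (fun z => (fc U s (alf P) z *ᵥ e) ⬝ᵥ
          ∑ a, (pdM a (GG U s) z - A a) *ᵥ (A a *ᵥ e))
      + Ex Q (fun z => (fc U s (chi P) z *ᵥ e) ⬝ᵥ ((GG U s z - ∑ a, z a • A a) *ᵥ e))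
      - Ex Q (fun z => ∑ a, (fc U s P.r' z *ᵥ ((pdM a (GG U s) z - A a) *ᵥ e)) ⬝ᵥ
          (fc U s P.r' z *ᵥ (A a *ᵥ e)))
      + Ex Q (fun z => ∑ a, KK (cker P) (U z) (s z) e (pdM a (GG U s) z) (A a *ᵥ e)) := by
  have hL : Continuous P.L := continuous_iff_continuousAt.2 fun x => (P.hL x).continuousAt
  have mT : MNc (fc U s P.t) := fun i j => nc_of_PL (PL.of_BL (h.bl _ _ P.ht hL i j))
  have mR : MNc (fc U s P.r) := fun i j => nc_of_PL (PL.of_BL (h.bl _ _ P.hr (cont_r' P) i j))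
  have mS : MNc (fc U s P.r') := fun i j => nc_of_PL (PL.of_BL (h.bl _ _ P.hr' P.r''_cont i j))
  have mχ : MNc (fc U s (chi P)) := fun i j =>
    nc_of_PL (PL.of_BL (h.bl _ _ (hasDeriv_chi P) (cont_chi' P) i j))
  have mα : MNc (fc U s (alf P)) := fun i j =>
    nc_of_PL (PL.of_BL (h.bl _ _ (hasDeriv_alf P) (cont_alf' P) i j))
  have mDR : ∀ a, MNc (pdM a (fc U s P.r)) := fun a i j =>
    nc_pd (PL.of_BL (h.bl _ _ P.hr (cont_r' P) i j)) a
  have mDχ : ∀ a, MNc (pdM a (fc U s (chi P))) := fun a i j =>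
    nc_pd (PL.of_BL (h.bl _ _ (hasDeriv_chi P) (cont_chi' P) i j)) a
  have hone : ∀ i j, PL fun z => GG U s z i j := fun i j =>
    PL.of_BL (h.bl (fun x => x) (fun _ => 1) (fun x => hasDerivAt_id' x) continuous_const i j)
  have mX : ∀ a, MNc (pdM a (GG U s)) := fun a i j => nc_pd (hone i j) a
  have mA : MNc fun z : E n => ∑ a, z a • A a := fun i j => by
    have e1 : (fun z : E n => (∑ a, z a • A a) i j) = fun z => ∑ a, z a * A a i j := by
      funext z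
      rw [Matrix.sum_apply]
      rfl
    rw [e1]
    exact Nc.sum _ fun a _ => (nc_of_PL (PL.coord a)).mul (Nc.const _)
  have mG : MNc (GG U s) := fun i j => nc_of_PL (hone i j)
  have mxχ : MNc (fc U s fun x => x * chi P x) := fun i j => nc_of_PL (PL.of_BL
    (h.bl _ (fun x => 1 * chi P x + x * chi' P x) (fun x => (hasDerivAt_id' x).mul (hasDeriv_chi P x))
      ((continuous_const.mul (continuous_iff_continuousAt.2 fun x =>
        (hasDeriv_chi P x).continuousAt)).add (continuous_id.mul (cont_chi' P))) i j))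
  have cE : VNc fun _ : E n => e := VNc.const e
  have cV : ∀ a, VNc fun _ : E n => A a *ᵥ e := fun a => VNc.const _
  -- the functions
  set w : Fin n → E n → Fin n → ℝ := fun a z => pdM a (fc U s P.r) z *ᵥ e with hw
  set b : Fin n → E n → Fin n → ℝ := fun a z => fc U s P.r' z *ᵥ (A a *ᵥ e) with hb
  set y : Fin n → E n → Fin n → ℝ := fun a z => fc U s P.r' z *ᵥ (pdM a (GG U s) z *ᵥ e) with hy
  set d : Fin n → E n → Fin n → ℝ := fun a z =>
    fc U s P.r' z *ᵥ ((pdM a (GG U s) z - A a) *ᵥ e) with hd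
  have nw : ∀ a, VNc (w a) := fun a => MNc.mulVec (mDR a) cE
  have nb : ∀ a, VNc (b a) := fun a => MNc.mulVec mS (cV a)
  have ny : ∀ a, VNc (y a) := fun a => MNc.mulVec mS (MNc.mulVec (mX a) cE)
  have nd : ∀ a, VNc (d a) := fun a =>
    MNc.mulVec mS (MNc.mulVec (MNc.sub (mX a) (MNc.const (A a))) cE)
  have hbyd : ∀ a z, b a z = y a z - d a z := by
    intro a z
    simp only [hb, hy, hd]
    rw [← mulVec_sub, ← sub_mulVec]
    congr 2
    rw [sub_sub_cancel]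
  -- integrands
  have nI1 : Nc fun z => 2 * (e ⬝ᵥ (fc U s P.t z *ᵥ e)) - (fc U s P.r z *ᵥ e) ⬝ᵥ (fc U s P.r z *ᵥ e)
      - ∑ a, w a z ⬝ᵥ w a z :=
    (((Nc.const 2).mul (VNc.dot cE (MNc.mulVec mT cE))).sub
      (VNc.dot (MNc.mulVec mR cE) (MNc.mulVec mR cE))).sub (Nc.sum _ fun a _ => VNc.dot (nw a) (nw a))
  have nI2 : Nc fun z => ∑ a, (w a z - b a z) ⬝ᵥ (w a z - b a z) :=
    Nc.sum _ fun a _ => VNc.dot ((nw a).sub (nb a)) ((nw a).sub (nb a))
  have n1 : Nc fun z => e ⬝ᵥ (fc U s (fun x => x * chi P x) z *ᵥ e) := VNc.dot cE (MNc.mulVec mxχ cE)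
  have n2 : Nc fun z => e ⬝ᵥ (fc U s (alf P) z *ᵥ e) := VNc.dot cE (MNc.mulVec mα cE)
  have n3 : Nc fun z => ∑ a, (-2 * (w a z ⬝ᵥ b a z) + y a z ⬝ᵥ b a z) :=
    Nc.sum _ fun a _ => ((Nc.const (-2)).mul (VNc.dot (nw a) (nb a))).add (VNc.dot (ny a) (nb a))
  have n4 : Nc fun z => ∑ a, d a z ⬝ᵥ b a z := Nc.sum _ fun a _ => VNc.dot (nd a) (nb a)
  have n5 : Nc fun z => ∑ a, e ⬝ᵥ (pdM a (fc U s (chi P)) z *ᵥ (A a *ᵥ e)) :=
    Nc.sum _ fun a _ => VNc.dot cE (MNc.mulVec (mDχ a) (cV a))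
  have n7 : Nc fun z => (fc U s (alf P) z *ᵥ e) ⬝ᵥ ∑ a, (pdM a (GG U s) z - A a) *ᵥ (A a *ᵥ e) := by
    refine VNc.dot (MNc.mulVec mα cE) fun i => ?_
    have e1 : (fun z => (∑ a, (pdM a (GG U s) z - A a) *ᵥ (A a *ᵥ e)) i)
        = fun z => ∑ a, ((pdM a (GG U s) z - A a) *ᵥ (A a *ᵥ e)) i := by
      funext z
      rw [Finset.sum_apply]
    rw [e1]
    exact Nc.sum _ fun a _ => MNc.mulVec (MNc.sub (mX a) (MNc.const (A a))) (cV a) i
  -- (i)
  have hi : ∀ z, (2 * (e ⬝ᵥ (fc U s P.t z *ᵥ e)) - (fc U s P.r z *ᵥ e) ⬝ᵥ (fc U s P.r z *ᵥ e)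
      - ∑ a, w a z ⬝ᵥ w a z) + ∑ a, (w a z - b a z) ⬝ᵥ (w a z - b a z)
      = e ⬝ᵥ e + e ⬝ᵥ (fc U s (fun x => x * chi P x) z *ᵥ e) - e ⬝ᵥ (fc U s (alf P) z *ᵥ e)
        + ∑ a, (-2 * (w a z ⬝ᵥ b a z) + y a z ⬝ᵥ b a z) - ∑ a, d a z ⬝ᵥ b a z := by
    intro z
    have h1 : 2 * (e ⬝ᵥ (fc U s P.t z *ᵥ e)) - (fc U s P.r z *ᵥ e) ⬝ᵥ (fc U s P.r z *ᵥ e)
        = e ⬝ᵥ e + e ⬝ᵥ (fc U s (fun x => x * chi P x) z *ᵥ e) - e ⬝ᵥ (fc U s (alf P) z *ᵥ e) := by
      simp only [fc_eq]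
      rw [dot_fm_fm (h.orth z), dot_fm (h.orth z), dot_fm (h.orth z), dot_fm (h.orth z),
        dot_fm (h.orth z), ← dot_orth (h.orth z) e e]
      generalize (U z)ᵀ *ᵥ e = p
      simp only [dotProduct]
      rw [Finset.mul_sum, ← Finset.sum_sub_distrib, ← Finset.sum_add_distrib,
        ← Finset.sum_sub_distrib]
      refine Finset.sum_congr rfl fun i _ => ?_
      have h2 := model_chi P (s z i)
      linear_combination (p i ^ 2) * h2
    have h2 : ∑ a, (w a z - b a z) ⬝ᵥ (w a z - b a z) = ∑ a, w a z ⬝ᵥ w a z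
        + (∑ a, (-2 * (w a z ⬝ᵥ b a z) + y a z ⬝ᵥ b a z) - ∑ a, d a z ⬝ᵥ b a z) := by
      rw [← Finset.sum_sub_distrib, ← Finset.sum_add_distrib]
      refine Finset.sum_congr rfl fun a _ => ?_
      have h3 : b a z ⬝ᵥ b a z = y a z ⬝ᵥ b a z - d a z ⬝ᵥ b a z := by
        conv_lhs => rw [hbyd a z, sub_dotProduct, ← hbyd a z]
      have h4 : (w a z - b a z) ⬝ᵥ (w a z - b a z)
          = w a z ⬝ᵥ w a z - 2 * (w a z ⬝ᵥ b a z) + b a z ⬝ᵥ b a z := by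
        rw [sub_dotProduct, dotProduct_sub, dotProduct_sub, dotProduct_comm (b a z) (w a z)]
        ring
      rw [h4, h3]
      ring
    rw [h1, h2]
    ring
  have hI : Ups P U s e + Qd P U s A e = e ⬝ᵥ e
      + ∫ z, e ⬝ᵥ (fc U s (fun x => x * chi P x) z *ᵥ e) ∂(gQ n)
      - ∫ z, e ⬝ᵥ (fc U s (alf P) z *ᵥ e) ∂(gQ n)
      + ∫ z, ∑ a, (-2 * (w a z ⬝ᵥ b a z) + y a z ⬝ᵥ b a z) ∂(gQ n)
      - ∫ z, ∑ a, d a z ⬝ᵥ b a z ∂(gQ n) := by
    have := gQ_prob (n := n)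
    unfold Ups Qd
    rw [Ex_eq, Ex_eq, ← integral_add nI1.integrable nI2.integrable]
    rw [integral_congr_ae (ae_of_all _ hi)]
    rw [integral_sub ((((Nc.const _).add n1).sub n2).add n3).integrable n4.integrable,
      integral_add (((Nc.const _).add n1).sub n2).integrable n3.integrable,
      integral_sub ((Nc.const _).add n1).integrable n2.integrable,
      integral_add (Nc.const _).integrable n1.integrable]
    simp
  -- (iii)
  have hiii : ∀ᵐ z ∂(gQ n), ∑ a, KK (cker P) (U z) (s z) e (pdM a (GG U s) z) (A a *ᵥ e)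
      = ∑ a, e ⬝ᵥ (pdM a (fc U s (chi P)) z *ᵥ (A a *ᵥ e))
        + ∑ a, (-2 * (w a z ⬝ᵥ b a z) + y a z ⬝ᵥ b a z)
        - q * (e ⬝ᵥ (fc U s (alf P) z *ᵥ e))
        - (fc U s (alf P) z *ᵥ e) ⬝ᵥ ∑ a, (pdM a (GG U s) z - A a) *ᵥ (A a *ᵥ e) := by
    filter_upwards [h.dk _ _ P.hr (cont_r' P), h.dk _ _ (hasDeriv_chi P) (cont_chi' P)] with z hz1 hz2
    have e1 : (fc U s (alf P) z *ᵥ e) ⬝ᵥ ∑ a, (pdM a (GG U s) z - A a) *ᵥ (A a *ᵥ e)
        + q * (e ⬝ᵥ (fc U s (alf P) z *ᵥ e))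
        = ∑ a, (fc U s (alf P) z *ᵥ e) ⬝ᵥ (pdM a (GG U s) z *ᵥ (A a *ᵥ e)) := by
      rw [dotProduct_sum]
      have e2 : q * (e ⬝ᵥ (fc U s (alf P) z *ᵥ e))
          = ∑ a, (fc U s (alf P) z *ᵥ e) ⬝ᵥ (A a *ᵥ (A a *ᵥ e)) := by
        rw [← dotProduct_sum, hq, dotProduct_smul, smul_eq_mul, dotProduct_comm]
      rw [e2, ← Finset.sum_add_distrib]
      refine Finset.sum_congr rfl fun a _ => ?_
      rw [sub_mulVec, dotProduct_sub, sub_add_cancel]
    have e3 : ∀ a, KK (cker P) (U z) (s z) e (pdM a (GG U s) z) (A a *ᵥ e)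
        = e ⬝ᵥ (pdM a (fc U s (chi P)) z *ᵥ (A a *ᵥ e)) + (-2 * (w a z ⬝ᵥ b a z) + y a z ⬝ᵥ b a z)
          - (fc U s (alf P) z *ᵥ e) ⬝ᵥ (pdM a (GG U s) z *ᵥ (A a *ᵥ e)) := by
      intro a
      have hXs : (pdM a (GG U s) z)ᵀ = pdM a (GG U s) z := pdM_symm U s (fun x => x) a z
      have k1 : e ⬝ᵥ (pdM a (fc U s (chi P)) z *ᵥ (A a *ᵥ e))
          = KK (SP.dd (chi P) (chi' P)) (U z) (s z) e (pdM a (GG U s) z) (A a *ᵥ e) :=
        dot_KK (h.orth z) (fun i j => hz2 a i j) e _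
      have k2 : w a z ⬝ᵥ b a z = KK (fun x y => SP.dd P.r P.r' x y * P.r' y) (U z) (s z) e
          (pdM a (GG U s) z) (A a *ᵥ e) :=
        dot_KK_right (h.orth z) (fun i j => hz1 a i j) (dd_symm _ _) hXs P.r' e _
      have k3 : y a z ⬝ᵥ b a z = KK (fun x y => 1 * (P.r' y * P.r' y)) (U z) (s z) e
          (pdM a (GG U s) z) (A a *ᵥ e) := by
        have k4 : y a z ⬝ᵥ b a z = (pdM a (GG U s) z *ᵥ e) ⬝ᵥ
            (fm (fun x => P.r' x * P.r' x) (U z) (s z) *ᵥ (A a *ᵥ e)) := by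
          simp only [hy, hb, fc_eq]
          exact dot_fm_fm (h.orth z) P.r' P.r' _ _
        rw [k4]
        exact dot_KK_right (c := fun _ _ => 1) (h.orth z) (fun i j => (one_mul _).symm)
          (fun _ _ => rfl) hXs (fun x => P.r' x * P.r' x) e _
      have k5 : (fc U s (alf P) z *ᵥ e) ⬝ᵥ (pdM a (GG U s) z *ᵥ (A a *ᵥ e))
          = KK (fun x _ => alf P x) (U z) (s z) e (pdM a (GG U s) z) (A a *ᵥ e) :=
        dot_KK_left (h.orth z) (alf P) _ e _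
      rw [k1, k2, k3, k5]
      have k6 : KK (fun x y => alf P x + cker P x y) (U z) (s z) e (pdM a (GG U s) z) (A a *ᵥ e)
          = KK (fun x y => SP.dd (chi P) (chi' P) x y + (-2) * (SP.dd P.r P.r' x y * P.r' y)
            + 1 * (P.r' y * P.r' y)) (U z) (s z) e (pdM a (GG U s) z) (A a *ᵥ e) :=
        KK_congr (fun x y => by rw [← ker_eq]; ring) e _ _
      rw [KK_add, KK_add, KK_add, KK_smul] at k6
      linarith
    simp only [e3]
    rw [Finset.sum_sub_distrib, Finset.sum_add_distrib]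
    linarith
  have hIII : Ex Q (fun z => ∑ a, KK (cker P) (U z) (s z) e (pdM a (GG U s) z) (A a *ᵥ e))
      = ∫ z, ∑ a, e ⬝ᵥ (pdM a (fc U s (chi P)) z *ᵥ (A a *ᵥ e)) ∂(gQ n)
        + ∫ z, ∑ a, (-2 * (w a z ⬝ᵥ b a z) + y a z ⬝ᵥ b a z) ∂(gQ n)
        - q * ∫ z, e ⬝ᵥ (fc U s (alf P) z *ᵥ e) ∂(gQ n)
        - ∫ z, (fc U s (alf P) z *ᵥ e) ⬝ᵥ ∑ a, (pdM a (GG U s) z - A a) *ᵥ (A a *ᵥ e) ∂(gQ n) := by
    rw [Ex_eq, integral_congr_ae hiii,
      integral_sub ((n5.add n3).sub ((Nc.const q).mul n2)).integrable n7.integrable,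
      integral_sub (n5.add n3).integrable ((Nc.const q).mul n2).integrable,
      integral_add n5.integrable n3.integrable, integral_const_mul]
  have hII := st h (hasDeriv_chi P) (cont_chi' P) A e
  rw [hI, hIII, Ex_eq, Ex_eq, Ex_eq, Ex_eq, hII]
  ring

end field

end Vale.Agent.P254.SP.H545
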