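import Vale.Agent.P254.SP.IfaceB
import Vale.Agent.P254.SP.H545.Byp2
import Vale.Agent.P254.SP.H620.Stmt

/-!
# P254, block SP: `StmtST` and `StmtUps` of `SP/IfaceB.lean`
-/

open MeasureTheory Matrix Finset

noncomputable section

namespace Vale.Agent.P254.SP.H545

open Vale.Agent.P227.M Vale.Agent.P254.S Vale.Agent.P254.S130 Vale.Agent.P254.SP.H828

variable {n : ℕ} {U : E n → Matrix (Fin n) (Fin n) ℝ} {s : E n → Fin n → ℝ}

/-! ### translation to frame coordinates -/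

section frame

variable (hU : ∀ z, U z * (U z)ᵀ = 1)

include hU

theorem fr1 (f : ℝ → ℝ) (e : Fin n → ℝ) (z : E n) :
    e ⬝ᵥ (fc U s f z *ᵥ e) = ∑ i, f (s z i) * xx U e z i ^ 2 := dot_fm (hU z) f e

theorem fr2 (f : ℝ → ℝ) (B : E n → Matrix (Fin n) (Fin n) ℝ) (e : Fin n → ℝ) (z : E n) :
    (fc U s f z *ᵥ e) ⬝ᵥ (B z *ᵥ e) = ∑ i, f (s z i) * xx U e z i * col U B e z i := by
  rw [← dot_orth (hU z)]
  simp only [dotProduct, H545.fc_eq, frame_fm (hU z)]
  rfl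

theorem fr3 (f g : ℝ → ℝ) (v w : Fin n → ℝ) (z : E n) :
    (fc U s f z *ᵥ v) ⬝ᵥ (fc U s g z *ᵥ w)
      = ∑ i, f (s z i) * g (s z i) * ((U z)ᵀ *ᵥ v) i * ((U z)ᵀ *ᵥ w) i := by
  rw [← dot_orth (hU z)]
  simp only [dotProduct, H545.fc_eq, frame_fm (hU z)]
  refine Finset.sum_congr rfl fun i _ => ?_
  ring

end frame

theorem KK_ext (c : ℝ → ℝ → ℝ) (e v : Fin n → ℝ) (k : Fin n) (z : E n) :
    H545.KK c (U z) (s z) e (pdM k (GG U s) z) v
      = ∑ i, ∑ j, c (s z i) (s z j) * xx U e z i * uu U s k z i j * xx U v z j := rfl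

/-- the functional calculus for the frame of a Brenier potential -/
theorem fld_of {P : F1} {φ V : E n → ℝ} {a b M κ : ℝ} (hD : Dat P φ V a b M κ U s) : Fld U s where
  orth := hD.fr.orth
  bl f f' hf hf' i j := SP620.mbl_fc hD.bp hD.fr hf hf' i j
  dk f f' hf hf' := by
    filter_upwards [SP620.ae_good hD.bp hD.fr] with z hz k i j
    exact SP620.frame_fc hD.bp hD.fr hf hf' hz k i j

theorem nc_of_BM {f : E n → ℝ} (hf : BM (gQ n) f) : Nc f := by
  obtain ⟨hm, B, hB⟩ := hf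
  exact ⟨⟨B, 0, fun x => by simpa using hB x⟩, hm⟩

/-- pointwise: `Σ_k (∂_k G) A_k e = q e + Z e` -/
theorem sum_X {A : Fin n → Matrix (Fin n) (Fin n) ℝ} {e : Fin n → ℝ} {q : ℝ}
    (hq : ∑ a, A a *ᵥ (A a *ᵥ e) = q • e) (X : Fin n → Matrix (Fin n) (Fin n) ℝ) :
    ∑ a, X a *ᵥ (A a *ᵥ e) = q • e + (∑ a, (X a - A a) * A a) *ᵥ e := by
  rw [sum_mulVec, ← hq, ← Finset.sum_add_distrib]
  refine Finset.sum_congr rfl fun a _ => ?_
  rw [← mulVec_mulVec, sub_mulVec]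
  abel

theorem hq_of {e : Fin n → ℝ} {q : ℝ} (hq : (SP.KK U s).mulVec e = q • e) :
    ∑ a, AA U s a *ᵥ (AA U s a *ᵥ e) = q • e := by
  rw [← hq]
  unfold SP.KK
  rw [sum_mulVec]
  refine Finset.sum_congr rfl fun a _ => ?_
  rw [mulVec_mulVec]

theorem ZZ_eq (z : E n) (e : Fin n → ℝ) :
    ∑ a, (pdM a (GG U s) z - AA U s a) *ᵥ (AA U s a *ᵥ e) = ZZ U s z *ᵥ e := by
  unfold ZZ Fa
  rw [sum_mulVec]
  refine Finset.sum_congr rfl fun a _ => ?_
  rw [mulVec_mulVec]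

/-- **SP-ST** -/
theorem stmtST : StmtST := by
  intro P n φ V a b M κ U s hD p p' hp hp' e q hq0
  have h := fld_of hD
  have hq := hq_of hq0
  have hU := hD.fr.orth
  have mP : MNc (fc U s p) := fun i j => nc_of_PL (PL.of_BL (h.bl _ _ hp hp' i j))
  have mP' : MNc (fc U s p') := fun i j => nc_of_BM (SP620.bm_fc hD.bp hD.fr hp' i j)
  have mDP : ∀ a, MNc (pdM a (fc U s p)) := fun a i j =>
    nc_pd (PL.of_BL (h.bl _ _ hp hp' i j)) a
  have hone : ∀ i j, PL fun z => GG U s z i j := fun i j =>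
    PL.of_BL (h.bl (fun x => x) (fun _ => 1) (fun x => hasDerivAt_id' x) continuous_const i j)
  have mX : ∀ a, MNc (pdM a (GG U s)) := fun a i j => nc_pd (hone i j) a
  have cE : VNc fun _ : E n => e := VNc.const e
  have cV : ∀ a, VNc fun _ : E n => AA U s a *ᵥ e := fun a => VNc.const _
  have hst := st h hp hp' (AA U s) e
  have n1 : Nc fun z => ∑ a, e ⬝ᵥ (pdM a (fc U s p) z *ᵥ (AA U s a *ᵥ e)) :=
    Nc.sum _ fun a _ => VNc.dot cE (MNc.mulVec (mDP a) (cV a))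
  have n2 : Nc fun z => ∑ a, (fc U s p' z *ᵥ e) ⬝ᵥ (pdM a (GG U s) z *ᵥ (AA U s a *ᵥ e)) :=
    Nc.sum _ fun a _ => VNc.dot (MNc.mulVec mP' cE) (MNc.mulVec (mX a) (cV a))
  -- the commutator term
  have hc : ∀ᵐ z ∂(gQ n), ∑ k, ∑ i, xx U e z i * kap p p' U s k ((AA U s k).mulVec e) z i
      = ∑ a, e ⬝ᵥ (pdM a (fc U s p) z *ᵥ (AA U s a *ᵥ e))
        - ∑ a, (fc U s p' z *ᵥ e) ⬝ᵥ (pdM a (GG U s) z *ᵥ (AA U s a *ᵥ e)) := by
    filter_upwards [h.dk _ _ hp hp'] with z hz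
    rw [← Finset.sum_sub_distrib]
    refine Finset.sum_congr rfl fun k _ => ?_
    have k1 : e ⬝ᵥ (pdM k (fc U s p) z *ᵥ (AA U s k *ᵥ e))
        = H545.KK (SP.dd p p') (U z) (s z) e (pdM k (GG U s) z) (AA U s k *ᵥ e) :=
      dot_KK (h.orth z) (fun i j => hz k i j) e _
    have k5 : (fc U s p' z *ᵥ e) ⬝ᵥ (pdM k (GG U s) z *ᵥ (AA U s k *ᵥ e))
        = H545.KK (fun x _ => p' x) (U z) (s z) e (pdM k (GG U s) z) (AA U s k *ᵥ e) :=
      dot_KK_left (h.orth z) p' _ e _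
    rw [k1, k5, KK_ext, KK_ext, ← Finset.sum_sub_distrib]
    refine Finset.sum_congr rfl fun i _ => ?_
    rw [← Finset.sum_sub_distrib]
    unfold kap
    rw [Finset.mul_sum]
    refine Finset.sum_congr rfl fun j _ => ?_
    ring
  have h2 : ∀ z, ∑ a, (fc U s p' z *ᵥ e) ⬝ᵥ (pdM a (GG U s) z *ᵥ (AA U s a *ᵥ e))
      = ∑ i, p' (s z i) * xx U e z i * (q * xx U e z i + col U (ZZ U s) e z i) := by
    intro z
    rw [← dotProduct_sum, sum_X hq, dotProduct_add, dotProduct_smul]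
    have e1 : (fc U s p' z *ᵥ e) ⬝ᵥ e = ∑ i, p' (s z i) * xx U e z i ^ 2 := by
      rw [dotProduct_comm]
      exact fr1 hU p' e z
    have e2 : (fc U s p' z *ᵥ e) ⬝ᵥ ((∑ a, (pdM a (GG U s) z - AA U s a) * AA U s a) *ᵥ e)
        = ∑ i, p' (s z i) * xx U e z i * col U (ZZ U s) e z i := fr2 hU p' (ZZ U s) e z
    rw [e1, e2, smul_eq_mul, Finset.mul_sum, ← Finset.sum_add_distrib]
    refine Finset.sum_congr rfl fun i _ => ?_
    ring
  have e0 : Ex Q (fun z => ∑ i, p (s z i) * s z i * xx U e z i ^ 2)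
      = ∫ z, e ⬝ᵥ (fc U s (fun x => x * p x) z *ᵥ e) ∂(gQ n) := by
    rw [Ex_eq]
    refine integral_congr_ae (ae_of_all _ fun z => ?_)
    refine Eq.trans ?_ (fr1 hU (fun x => x * p x) e z).symm
    refine Finset.sum_congr rfl fun i _ => ?_
    ring
  have e1 : Ex Q (fun z => ∑ i, p (s z i) * xx U e z i * col U (FF U s) e z i)
      = ∫ z, (fc U s p z *ᵥ e) ⬝ᵥ ((GG U s z - ∑ a, z a • AA U s a) *ᵥ e) ∂(gQ n) := by
    rw [Ex_eq]
    refine integral_congr_ae (ae_of_all _ fun z => ?_)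
    exact (fr2 hU p (FF U s) e z).symm
  have e2 : Ex Q (fun z => ∑ i, p' (s z i) * xx U e z i * (q * xx U e z i + col U (ZZ U s) e z i))
      = ∫ z, ∑ a, (fc U s p' z *ᵥ e) ⬝ᵥ (pdM a (GG U s) z *ᵥ (AA U s a *ᵥ e)) ∂(gQ n) := by
    rw [Ex_eq]
    refine integral_congr_ae (ae_of_all _ fun z => ?_)
    exact (h2 z).symm
  have e3 : Ex Q (fun z => ∑ k, ∑ i, xx U e z i * kap p p' U s k ((AA U s k).mulVec e) z i)
      = ∫ z, ∑ a, e ⬝ᵥ (pdM a (fc U s p) z *ᵥ (AA U s a *ᵥ e)) ∂(gQ n)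
        - ∫ z, ∑ a, (fc U s p' z *ᵥ e) ⬝ᵥ (pdM a (GG U s) z *ᵥ (AA U s a *ᵥ e)) ∂(gQ n) := by
    rw [Ex_eq, integral_congr_ae hc, integral_sub n1.integrable n2.integrable]
  rw [e0, e1, e2, e3, hst]
  ring

/-- **SP-UPS** -/
theorem stmtUps : StmtUps := by
  intro P n φ V a b M κ U s hD e q hq0 he
  have h := fld_of hD
  have hq := hq_of hq0
  have hU := hD.fr.orth
  have hL : Continuous P.L := continuous_iff_continuousAt.2 fun x => (P.hL x).continuousAt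
  have mT : MNc (fc U s P.t) := fun i j => nc_of_PL (PL.of_BL (h.bl _ _ P.ht hL i j))
  have mR : MNc (fc U s P.r) := fun i j => nc_of_PL (PL.of_BL (h.bl _ _ P.hr (cont_r' P) i j))
  have mDR : ∀ a, MNc (pdM a (fc U s P.r)) := fun a i j =>
    nc_pd (PL.of_BL (h.bl _ _ P.hr (cont_r' P) i j)) a
  have cE : VNc fun _ : E n => e := VNc.const e
  have hb := byp2 P h hq
  -- the left side
  have hups : SP.Ups P U s e = H545.Ups P U s e := by
    unfold SP.Ups H545.Ups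
    have e1 : Ex Q (fun z => ∑ i, P.t (s z i) * xx U e z i ^ 2)
        = ∫ z, e ⬝ᵥ (fc U s P.t z *ᵥ e) ∂(gQ n) := by
      rw [Ex_eq]
      exact integral_congr_ae (ae_of_all _ fun z => (fr1 hU P.t e z).symm)
    have e2 : Ex Q (fun z => ∑ i, P.r (s z i) ^ 2 * xx U e z i ^ 2)
        = ∫ z, (fc U s P.r z *ᵥ e) ⬝ᵥ (fc U s P.r z *ᵥ e) ∂(gQ n) := by
      rw [Ex_eq]
      refine integral_congr_ae (ae_of_all _ fun z => ?_)
      refine Eq.trans ?_ (fr3 hU P.r P.r e e z).symm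
      refine Finset.sum_congr rfl fun i _ => ?_
      show _ = P.r (s z i) * P.r (s z i) * xx U e z i * xx U e z i
      ring
    have e3 : Ex Q (fun z => ∑ a, ∑ i, ((pdM a (fc U s P.r) z).mulVec e i) ^ 2)
        = ∫ z, ∑ a, (pdM a (fc U s P.r) z *ᵥ e) ⬝ᵥ (pdM a (fc U s P.r) z *ᵥ e) ∂(gQ n) := by
      rw [Ex_eq]
      refine integral_congr_ae (ae_of_all _ fun z => ?_)
      refine Finset.sum_congr rfl fun a _ => Finset.sum_congr rfl fun i _ => ?_
      ring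
    rw [e1, e2, e3, Ex_eq, integral_sub, integral_sub, integral_const_mul]
    · exact ((Nc.const 2).mul (VNc.dot cE (MNc.mulVec mT cE))).integrable
    · exact (VNc.dot (MNc.mulVec mR cE) (MNc.mulVec mR cE)).integrable
    · exact (((Nc.const 2).mul (VNc.dot cE (MNc.mulVec mT cE))).sub
        (VNc.dot (MNc.mulVec mR cE) (MNc.mulVec mR cE))).integrable
    · exact (Nc.sum _ fun a _ => VNc.dot (MNc.mulVec (mDR a) cE) (MNc.mulVec (mDR a) cE)).integrable
  -- the terms of the right side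
  have t1 : e ⬝ᵥ e = 1 := by
    rw [← he]
    refine Finset.sum_congr rfl fun i _ => ?_
    ring
  have t2 : Ex Q (fun z => e ⬝ᵥ (fc U s (alf P) z *ᵥ e))
      = Ex Q (fun z => ∑ i, (P.r' (s z i) + P.r (s z i) * P.r'' (s z i)) * xx U e z i ^ 2) := by
    rw [Ex_eq, Ex_eq]
    exact integral_congr_ae (ae_of_all _ fun z => fr1 hU (alf P) e z)
  have t3 : Ex Q (fun z => (fc U s (alf P) z *ᵥ e) ⬝ᵥ
        ∑ a, (pdM a (GG U s) z - AA U s a) *ᵥ (AA U s a *ᵥ e))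
      = Ex Q (fun z => ∑ i, (P.r' (s z i) + P.r (s z i) * P.r'' (s z i)) * xx U e z i
          * col U (ZZ U s) e z i) := by
    rw [Ex_eq, Ex_eq]
    refine integral_congr_ae (ae_of_all _ fun z => ?_)
    beta_reduce
    rw [ZZ_eq]
    exact fr2 hU (alf P) (ZZ U s) e z
  have t4 : Ex Q (fun z => (fc U s (chi P) z *ᵥ e) ⬝ᵥ ((GG U s z - ∑ a, z a • AA U s a) *ᵥ e))
      = Ex Q (fun z => ∑ i, (P.r (s z i) + P.r (s z i) * P.r' (s z i)) * xx U e z i
          * col U (FF U s) e z i) := by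
    rw [Ex_eq, Ex_eq]
    exact integral_congr_ae (ae_of_all _ fun z => fr2 hU (chi P) (FF U s) e z)
  have t5 : Ex Q (fun z => ∑ a, (fc U s P.r' z *ᵥ ((pdM a (GG U s) z - AA U s a) *ᵥ e)) ⬝ᵥ
        (fc U s P.r' z *ᵥ (AA U s a *ᵥ e)))
      = Ex Q (fun z => ∑ k, ∑ i, P.r' (s z i) ^ 2 * xx U ((AA U s k).mulVec e) z i
          * col U (Fa U s k) e z i) := by
    rw [Ex_eq, Ex_eq]
    refine integral_congr_ae (ae_of_all _ fun z => ?_)
    refine Finset.sum_congr rfl fun k _ => ?_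
    rw [fr3 hU]
    refine Finset.sum_congr rfl fun i _ => ?_
    show P.r' (s z i) * P.r' (s z i) * col U (Fa U s k) e z i * xx U ((AA U s k).mulVec e) z i = _
    ring
  have t6 : Qd P U s (AA U s) e = Ex Q (fun z => ∑ k, ∑ i, be P U s e k z i ^ 2) := by
    unfold Qd
    rw [Ex_eq, Ex_eq]
    refine integral_congr_ae ?_
    filter_upwards [h.dk _ _ P.hr (cont_r' P)] with z hz
    refine Finset.sum_congr rfl fun k _ => ?_
    rw [← dot_orth (hU z)]
    simp only [dotProduct]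
    refine Finset.sum_congr rfl fun i _ => ?_
    have e1 : ((U z)ᵀ *ᵥ (pdM k (fc U s P.r) z *ᵥ e - fc U s P.r' z *ᵥ (AA U s k *ᵥ e))) i
        = be P U s e k z i := by
      rw [mulVec_sub, Pi.sub_apply, frame_mul (hU z) (pdM k (fc U s P.r) z)]
      have e2 : ((U z)ᵀ *ᵥ (fc U s P.r' z *ᵥ (AA U s k *ᵥ e))) i
          = P.r' (s z i) * xx U (AA U s k *ᵥ e) z i := by
        rw [H545.fc_eq, frame_fm (hU z)]
        rfl
      rw [e2]
      unfold be
      have e3 : col U (Fa U s k) e z i = ∑ j, uu U s k z i j * xx U e z j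
          - xx U (AA U s k *ᵥ e) z i := by
        unfold col Fa
        rw [sub_mulVec, mulVec_sub, Pi.sub_apply, frame_mul (hU z)]
        rfl
      rw [e3]
      unfold kap
      have e4 : ((U z)ᵀ * pdM k (fc U s P.r) z * U z) *ᵥ ((U z)ᵀ *ᵥ e) = fun i =>
          ∑ j, SP.dd P.r P.r' (s z i) (s z j) * uu U s k z i j * xx U e z j := by
        funext i
        have e6 : ∀ j, ((U z)ᵀ * pdM k (fc U s P.r) z * U z) i j * ((U z)ᵀ *ᵥ e) j
            = SP.dd P.r P.r' (s z i) (s z j) * uu U s k z i j * xx U e z j := by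
          intro j
          rw [hz k i j]
          rfl
        have e7 : (((U z)ᵀ * pdM k (fc U s P.r) z * U z) *ᵥ (U z)ᵀ *ᵥ e) i
            = ∑ j, ((U z)ᵀ * pdM k (fc U s P.r) z * U z) i j * ((U z)ᵀ *ᵥ e) j := rfl
        rw [e7]
        exact Finset.sum_congr rfl fun j _ => e6 j
      rw [e4]
      simp only [sub_mul, Finset.sum_sub_distrib]
      have e5 : P.r' (s z i) * ∑ j, uu U s k z i j * xx U e z j
          = ∑ j, P.r' (s z i) * uu U s k z i j * xx U e z j := by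
        rw [Finset.mul_sum]
        refine Finset.sum_congr rfl fun j _ => ?_
        ring
      rw [mul_sub, e5]
      ring
    rw [e1]
    ring
  have t7 : Ex Q (fun z => ∑ a, H545.KK (cker P) (U z) (s z) e (pdM a (GG U s) z) (AA U s a *ᵥ e))
      = Ex Q (fun z => ∑ k, ∑ i, ∑ j, xx U e z i * uu U s k z i j
          * xx U ((AA U s k).mulVec e) z j *
        ((dd P.r P.r' (s z i) (s z j) - P.r' (s z i))
          + P.r (s z i) * (dd P.r' P.r'' (s z i) (s z j) - P.r'' (s z i))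
          - P.r' (s z j) * (dd P.r P.r' (s z i) (s z j) - P.r' (s z j)))) := by
    rw [Ex_eq, Ex_eq]
    refine integral_congr_ae (ae_of_all _ fun z => ?_)
    refine Finset.sum_congr rfl fun k _ => ?_
    rw [KK_ext]
    refine Finset.sum_congr rfl fun i _ => Finset.sum_congr rfl fun j _ => ?_
    show cker P (s z i) (s z j) * _ * _ * _ = _
    unfold cker
    ring
  rw [t1, t2, t3, t4, t5, t6, t7] at hb
  rw [hups]
  linarith

end Vale.Agent.P254.SP.H545
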